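import Vale.Agent.P296.Main

open Vale.Agent.P296

/-- There is an ample holomorphic vector bundle of rank two on `ℙ¹ × ℙ¹` that carries no smooth
Hermitian metric with strictly Griffiths positive Chern curvature. -/
theorem Vale.Agent.Results.P296.NoGriffiths.result :
    ∃ E : Bundle 2, Ample E ∧ ¬ ∃ g : Metric E, GriffithsPos g :=
  main
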